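import Vale.Agent.Lib.P235.Theta.PhiBasic

namespace Vale.Agent.Lib.P235

variable {X : Type} [DecidableEq X] {n : ℕ} {G : SimpleGraph X} {ℓ : X → X → ℝ} {s t : X}
  {path : X → Fin n} {pos : X → ℝ} {L : Fin n → ℝ}

/-- LEAF B1 -/
theorem IsTheta.L_pos (h : IsTheta G ℓ s t path pos L) (i : Fin n) : 0 < L i := by
  obtain ⟨x, hxs, hxt, hp⟩ := h.hne i
  have h1 := h.hpos x hxs hxt
  rw [hp] at h1
  linarith [h1.1, h1.2]

theorem arcPos_s (s t : X) (pos : X → ℝ) (L : Fin n → ℝ) (i : Fin n) :
    arcPos s t pos L i s = 0 := by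
  simp [arcPos]

theorem arcPos_t {s t : X} (hst : s ≠ t) (pos : X → ℝ) (L : Fin n → ℝ) (i : Fin n) :
    arcPos s t pos L i t = L i := by
  simp [arcPos, hst.symm]

theorem arcPos_inner {s t : X} (pos : X → ℝ) (L : Fin n → ℝ) (i : Fin n) {x : X}
    (hs : x ≠ s) (ht : x ≠ t) : arcPos s t pos L i x = pos x := by
  simp [arcPos, hs, ht]

/-- LEAF B2 -/
theorem IsTheta.arcPos_mem (h : IsTheta G ℓ s t path pos L) (i : Fin n) (x : X)
    (hx : onArc s t path i x) : 0 ≤ arcPos s t pos L i x ∧ arcPos s t pos L i x ≤ L i := by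
  by_cases hs : x = s
  · subst hs
    rw [arcPos_s]
    exact ⟨le_refl _, (h.L_pos i).le⟩
  by_cases ht : x = t
  · subst ht
    rw [arcPos_t h.hst]
    exact ⟨(h.L_pos i).le, le_refl _⟩
  have hp : path x = i := by
    rcases hx with hx | hx | hx
    · exact absurd hx hs
    · exact absurd hx ht
    · exact hx
  rw [arcPos_inner pos L i hs ht]
  have h1 := h.hpos x hs ht
  rw [hp] at h1
  exact ⟨h1.1.le, h1.2.le⟩

/-- LEAF B3 -/
theorem IsTheta.arc_inj (h : IsTheta G ℓ s t path pos L) (i : Fin n) (x y : X)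
    (hx : onArc s t path i x) (hy : onArc s t path i y)
    (he : arcPos s t pos L i x = arcPos s t pos L i y) : x = y := by
  have hLi := h.L_pos i
  have key : ∀ z, onArc s t path i z → z ≠ s → z ≠ t →
      path z = i ∧ 0 < arcPos s t pos L i z ∧ arcPos s t pos L i z < L i := by
    intro z hz hs ht
    have hp : path z = i := by
      rcases hz with hz | hz | hz
      · exact absurd hz hs
      · exact absurd hz ht
      · exact hz
    rw [arcPos_inner pos L i hs ht]
    have h1 := h.hpos z hs ht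
    rw [hp] at h1
    exact ⟨hp, h1.1, h1.2⟩
  by_cases hxs : x = s
  · by_cases hys : y = s
    · rw [hxs, hys]
    exfalso
    rw [hxs, arcPos_s] at he
    by_cases hyt : y = t
    · rw [hyt, arcPos_t h.hst] at he
      linarith
    · have := key y hy hys hyt
      linarith [this.2.1]
  by_cases hxt : x = t
  · by_cases hyt : y = t
    · rw [hxt, hyt]
    exfalso
    rw [hxt, arcPos_t h.hst] at he
    by_cases hys : y = s
    · rw [hys, arcPos_s] at he
      linarith
    · have := key y hy hys hyt
      linarith [this.2.2]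
  have kx := key x hx hxs hxt
  by_cases hys : y = s
  · exfalso
    rw [hys, arcPos_s] at he
    linarith [kx.2.1]
  by_cases hyt : y = t
  · exfalso
    rw [hyt, arcPos_t h.hst] at he
    linarith [kx.2.2]
  have ky := key y hy hys hyt
  rw [arcPos_inner pos L i hxs hxt, arcPos_inner pos L i hys hyt] at he
  exact h.hinj x y hxs hxt hys hyt (kx.1.trans ky.1.symm) he

theorem onArc_self (s t : X) (path : X → Fin n) (x : X) : onArc s t path (path x) x :=
  Or.inr (Or.inr rfl)

/-- LEAF B4: the formula may be evaluated on any arc containing `x` (use tPhi_zero, tPhi_top for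
`x = s`, `x = t`; otherwise `path x = i`) -/
theorem IsTheta.delta_eq (h : IsTheta G ℓ s t path pos L) (D : ℝ) (hD : 0 ≤ D)
    (hL : ∀ i, D ≤ L i) (i : Fin n) (x y : X) (hx : onArc s t path i x) :
    tDelta s t path pos L D x y
      = tPhi L D i (arcPos s t pos L i x) (path y) (arcPos s t pos L (path y) y) := by
  have hq := h.arcPos_mem (path y) y (onArc_self s t path y)
  unfold tDelta
  by_cases hs : x = s
  · subst hs
    rw [arcPos_s, arcPos_s, tPhi_zero L D hD hL _ _ _ hq.1 hq.2,
      tPhi_zero L D hD hL _ _ _ hq.1 hq.2]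
  by_cases ht : x = t
  · subst ht
    rw [arcPos_t h.hst, arcPos_t h.hst, tPhi_top L D hD hL _ _ _ hq.1 hq.2,
      tPhi_top L D hD hL _ _ _ hq.1 hq.2]
  have hp : path x = i := by
    rcases hx with hx | hx | hx
    · exact absurd hx hs
    · exact absurd hx ht
    · exact hx
  rw [hp]

end Vale.Agent.Lib.P235
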