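import Vale.Agent.Lib.P235.Theta.ArcBasic

namespace Vale.Agent.Lib.P235

variable {X : Type} [DecidableEq X] {n : ℕ} {G : SimpleGraph X} {ℓ : X → X → ℝ} {s t : X}
  {path : X → Fin n} {pos : X → ℝ} {L : Fin n → ℝ}

theorem dist_le_len [MetricSpace X]
    (hd : ∀ x y, IsGLB (Set.range (fun p : G.Walk x y => walkLen ℓ p)) (dist x y))
    (x v : X) (hadj : G.Adj x v) : dist x v ≤ ℓ x v := by
  have h := (hd x v).1 ⟨SimpleGraph.Walk.cons hadj SimpleGraph.Walk.nil, rfl⟩
  simpa [walkLen] using h

open Classical in
theorem IsTheta.dist_le_arc_aux [Fintype X] [MetricSpace X] (h : IsTheta G ℓ s t path pos L)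
    (hd : ∀ x y, IsGLB (Set.range (fun p : G.Walk x y => walkLen ℓ p)) (dist x y))
    (i : Fin n) (N : ℕ) : ∀ (x y : X), onArc s t path i x → onArc s t path i y →
    arcPos s t pos L i x ≤ arcPos s t pos L i y →
    (Finset.univ.filter (fun z => onArc s t path i z ∧
      arcPos s t pos L i x < arcPos s t pos L i z ∧
      arcPos s t pos L i z < arcPos s t pos L i y)).card = N →
    dist x y ≤ arcPos s t pos L i y - arcPos s t pos L i x := by
  induction N using Nat.strong_induction_on with
  | _ N ih =>
    intro x y hx hy hle hN
    rcases hle.eq_or_lt with he | hlt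
    · have hxy := h.arc_inj i x y hx hy he
      subst hxy
      simp
    · by_cases hS : (Finset.univ.filter (fun z => onArc s t path i z ∧
          arcPos s t pos L i x < arcPos s t pos L i z ∧
          arcPos s t pos L i z < arcPos s t pos L i y)).Nonempty
      · obtain ⟨z, hz⟩ := hS
        have hz' := hz
        rw [Finset.mem_filter] at hz'
        obtain ⟨-, hzA, hz1, hz2⟩ := hz'
        have c1 : (Finset.univ.filter (fun w => onArc s t path i w ∧
            arcPos s t pos L i x < arcPos s t pos L i w ∧
            arcPos s t pos L i w < arcPos s t pos L i z)).card < N := by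
          rw [← hN]
          apply Finset.card_lt_card
          rw [Finset.ssubset_iff_of_subset]
          · refine ⟨z, hz, ?_⟩
            rw [Finset.mem_filter]
            rintro ⟨-, -, -, h3⟩
            exact lt_irrefl _ h3
          · intro w hw
            rw [Finset.mem_filter] at hw ⊢
            exact ⟨Finset.mem_univ w, hw.2.1, hw.2.2.1, lt_trans hw.2.2.2 hz2⟩
        have c2 : (Finset.univ.filter (fun w => onArc s t path i w ∧
            arcPos s t pos L i z < arcPos s t pos L i w ∧
            arcPos s t pos L i w < arcPos s t pos L i y)).card < N := by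
          rw [← hN]
          apply Finset.card_lt_card
          rw [Finset.ssubset_iff_of_subset]
          · refine ⟨z, hz, ?_⟩
            rw [Finset.mem_filter]
            rintro ⟨-, -, h3, -⟩
            exact lt_irrefl _ h3
          · intro w hw
            rw [Finset.mem_filter] at hw ⊢
            exact ⟨Finset.mem_univ w, hw.2.1, lt_trans hz1 hw.2.2.1, hw.2.2.2⟩
        have d1 := ih _ c1 x z hx hzA hz1.le rfl
        have d2 := ih _ c2 z y hzA hy hz2.le rfl
        have d3 := dist_triangle x z y
        linarith
      · have hadj : G.Adj x y := by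
          rw [h.hadj]
          refine ⟨i, hx, hy, hlt.ne, ?_⟩
          rintro z hz ⟨h1, h2⟩
          rw [min_eq_left hlt.le] at h1
          rw [max_eq_right hlt.le] at h2
          exact hS ⟨z, Finset.mem_filter.mpr ⟨Finset.mem_univ z, hz, h1, h2⟩⟩
        have h5 := dist_le_len hd x y hadj
        rw [h.hlen i x y hadj hx hy, abs_sub_comm, abs_of_pos (by linarith)] at h5
        exact h5

/-- LEAF G3: going along an arc.  Strong induction on the number of `z` on the arc `i` with
`arcPos x < arcPos z < arcPos y`.  Equal positions: `x = y` (arc_inj).  No such `z`: `x`, `y` are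
adjacent (hadj), use dist_le_len and hlen.  Otherwise pick `z`, use the triangle inequality and the
induction hypothesis for `(x, z)` and `(z, y)`. -/
theorem IsTheta.dist_le_arc [Fintype X] [MetricSpace X] (h : IsTheta G ℓ s t path pos L)
    (hd : ∀ x y, IsGLB (Set.range (fun p : G.Walk x y => walkLen ℓ p)) (dist x y))
    (i : Fin n) (x y : X) (hx : onArc s t path i x) (hy : onArc s t path i y)
    (hle : arcPos s t pos L i x ≤ arcPos s t pos L i y) :
    dist x y ≤ arcPos s t pos L i y - arcPos s t pos L i x :=
  h.dist_le_arc_aux hd i _ x y hx hy hle rfl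

end Vale.Agent.Lib.P235
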