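import Vale.Agent.Lib.P235.L1

/-!
# P235, theta graphs: the semimetrics used in the embedding
-/

namespace Vale.Agent.Lib.P235

variable {X I : Type}

/-- circle semimetric: two arcs (types), position `b` in `[0, H]` -/
def circ (τ : X → Bool) (H : ℝ) (b : X → ℝ) (x y : X) : ℝ :=
  if τ x = τ y then |b x - b y| else H - |b x - b y|

/-- one level; the undecided points of one class move together -/
def kapc [DecidableEq I] (cls : X → I) (und σ : X → Bool) (x y : X) : ℝ :=
  if und x = true ∧ und y = true then (if cls x = cls y then 0 else 1)
  else if und x = true ∨ und y = true then 1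
  else if σ x = σ y then 0 else 2

/-- the level semimetric with classes -/
def Nc [DecidableEq I] (cls : X → I) (σ : X → Bool) (W : ℝ) (w : X → ℝ) (x y : X) : ℝ :=
  if cls x = cls y then (if σ x = σ y then |w x - w y| else 2 * W - w x - w y)
  else (if σ x = σ y then max (w x) (w y) else 2 * W - max (w x) (w y))

/-- one coordinate for every class -/
def tent [DecidableEq I] (cls : X → I) (c : X → ℝ) (x y : X) : ℝ :=
  if cls x = cls y then |c x - c y| else c x + c y

/-- sum over the classes of the circle semimetrics; points outside the class sit at the base -/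
def Uc [Fintype I] [DecidableEq I] (cls : X → I) (τ : X → Bool) (H : I → ℝ) (b : X → ℝ)
    (x y : X) : ℝ :=
  ∑ i, circ (fun z => if cls z = i then τ z else true) (H i)
    (fun z => if cls z = i then b z else 0) x y

/-- a single cut -/
theorem cut_isL1 (A : X → Bool) : IsL1 (fun x y => if A x = A y then (0 : ℝ) else 1) := by
  refine ⟨Unit, inferInstance, fun x _ => if A x = true then 1 else 0, fun x y => ?_⟩
  show (if A x = A y then (0 : ℝ) else 1)
    = ∑ _k : Unit, |(if A x = true then (1 : ℝ) else 0) - (if A y = true then (1 : ℝ) else 0)|
  cases hx : A x <;> cases hy : A y <;> simp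

end Vale.Agent.Lib.P235
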