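import Vale.Agent.Lib.P235.Theta.Basic

namespace Vale.Agent.Lib.P235

variable {X : Type}

theorem circ_isL1_aux [Fintype X] (τ : X → Bool) (n : ℕ) :
    ∀ (H : ℝ) (b : X → ℝ), (∀ x, 0 ≤ b x) → (∀ x, b x ≤ H) → 0 ≤ H →
      (Finset.univ.filter (fun x => 0 < b x)).card = n → IsL1 (circ τ H b) := by
  induction n using Nat.strong_induction_on with
  | _ n ih =>
    intro H b hb0 hbH hH hn
    by_cases hS : (Finset.univ.filter (fun x => 0 < b x)).Nonempty
    · obtain ⟨x0, hx0, hmin⟩ := Finset.exists_min_image _ b hS
      have hc : 0 < b x0 := (Finset.mem_filter.mp hx0).2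
      have hmin' : ∀ x, 0 < b x → b x0 ≤ b x := fun x hx =>
        hmin x (Finset.mem_filter.mpr ⟨Finset.mem_univ x, hx⟩)
      have hcard : (Finset.univ.filter (fun x => 0 < max (b x - b x0) 0)).card < n := by
        rw [← hn]
        apply Finset.card_lt_card
        rw [Finset.ssubset_iff_of_subset]
        · refine ⟨x0, hx0, ?_⟩
          simp
        · intro x hx
          rw [Finset.mem_filter] at hx ⊢
          refine ⟨Finset.mem_univ x, ?_⟩
          have h1 := hx.2
          rcases lt_max_iff.mp h1 with h | h
          · linarith
          · exact absurd h (lt_irrefl 0)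
      have hrec : IsL1 (circ τ (H - b x0) (fun x => max (b x - b x0) 0)) :=
        ih _ hcard (H - b x0) (fun x => max (b x - b x0) 0)
          (fun x => le_max_right _ _)
          (fun x => max_le (by linarith [hbH x]) (by linarith [hbH x0]))
          (by linarith [hbH x0]) rfl
      have hk : IsL1 (fun x y => b x0 *
          (if (τ x == decide (0 < b x)) = (τ y == decide (0 < b y)) then (0 : ℝ) else 1)) :=
        IsL1.smul hc.le (cut_isL1 (fun z => τ z == decide (0 < b z)))
      refine IsL1.congr ?_ (hrec.add hk)
      intro x y
      show circ τ (H - b x0) (fun x => max (b x - b x0) 0) x y + b x0 *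
          (if (τ x == decide (0 < b x)) = (τ y == decide (0 < b y)) then (0 : ℝ) else 1)
        = circ τ H b x y
      unfold circ
      beta_reduce
      have hx1 : b x = 0 ∨ b x0 ≤ b x := by
        rcases (hb0 x).eq_or_lt with h | h
        · exact Or.inl h.symm
        · exact Or.inr (hmin' x h)
      have hy1 : b y = 0 ∨ b x0 ≤ b y := by
        rcases (hb0 y).eq_or_lt with h | h
        · exact Or.inl h.symm
        · exact Or.inr (hmin' y h)
      rcases hx1 with hx1 | hx1 <;> rcases hy1 with hy1 | hy1
      · have dx : decide (0 < b x) = false := decide_eq_false (by rw [hx1]; exact lt_irrefl 0)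
        have dy : decide (0 < b y) = false := decide_eq_false (by rw [hy1]; exact lt_irrefl 0)
        have mx : max (b x - b x0) 0 = 0 := max_eq_right (by linarith)
        have my : max (b y - b x0) 0 = 0 := max_eq_right (by linarith)
        rw [dx, dy, mx, my, hx1, hy1]
        cases τ x <;> cases τ y <;> simp
      · have dx : decide (0 < b x) = false := decide_eq_false (by rw [hx1]; exact lt_irrefl 0)
        have dy : decide (0 < b y) = true := decide_eq_true (lt_of_lt_of_le hc hy1)
        have mx : max (b x - b x0) 0 = 0 := max_eq_right (by linarith)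
        have my : max (b y - b x0) 0 = b y - b x0 := max_eq_left (by linarith)
        have e1 : |0 - (b y - b x0)| = b y - b x0 := by
          rw [zero_sub, abs_neg, abs_of_nonneg (by linarith)]
        have e2 : |b x - b y| = b y := by
          rw [hx1, zero_sub, abs_neg, abs_of_nonneg (by linarith)]
        rw [dx, dy, mx, my, e1, e2]
        cases τ x <;> cases τ y <;> simp <;> ring
      · have dx : decide (0 < b x) = true := decide_eq_true (lt_of_lt_of_le hc hx1)
        have dy : decide (0 < b y) = false := decide_eq_false (by rw [hy1]; exact lt_irrefl 0)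
        have mx : max (b x - b x0) 0 = b x - b x0 := max_eq_left (by linarith)
        have my : max (b y - b x0) 0 = 0 := max_eq_right (by linarith)
        have e1 : |b x - b x0 - 0| = b x - b x0 := by
          rw [sub_zero, abs_of_nonneg (by linarith)]
        have e2 : |b x - b y| = b x := by
          rw [hy1, sub_zero, abs_of_nonneg (by linarith)]
        rw [dx, dy, mx, my, e1, e2]
        cases τ x <;> cases τ y <;> simp <;> ring
      · have dx : decide (0 < b x) = true := decide_eq_true (lt_of_lt_of_le hc hx1)
        have dy : decide (0 < b y) = true := decide_eq_true (lt_of_lt_of_le hc hy1)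
        have mx : max (b x - b x0) 0 = b x - b x0 := max_eq_left (by linarith)
        have my : max (b y - b x0) 0 = b y - b x0 := max_eq_left (by linarith)
        have e1 : b x - b x0 - (b y - b x0) = b x - b y := by ring
        rw [dx, dy, mx, my, e1]
        cases τ x <;> cases τ y <;> simp <;> ring
    · have hz : ∀ x, b x = 0 := by
        intro x
        by_contra h
        exact hS ⟨x, Finset.mem_filter.mpr
          ⟨Finset.mem_univ x, lt_of_le_of_ne (hb0 x) (Ne.symm h)⟩⟩
      have hk : IsL1 (fun x y => H * (if τ x = τ y then (0 : ℝ) else 1)) :=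
        IsL1.smul hH (cut_isL1 τ)
      refine IsL1.congr ?_ hk
      intro x y
      show H * (if τ x = τ y then (0 : ℝ) else 1) = circ τ H b x y
      unfold circ
      rw [hz x, hz y]
      split_ifs <;> simp

/-- LEAF B: the circle semimetric is `ℓ₁`.  Induction on the number of `x` with `0 < b x`
(copy the structure of `Nf_isL1_aux` in `Lib/P235/Levels.lean`).
Base (all `b = 0`): `circ = H * cut τ`.  Step: `c` the least positive value of `b`,
`b' = max (b - c) 0`, `H' = H - c`, `A x = (τ x = decide (0 < b x))`, i.e. `A x` is true iff
(`τ x` and `0 < b x`) or (not `τ x` and `b x = 0`); then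
`circ τ H b = circ τ H' b' + c * cut A`. -/
theorem circ_isL1 [Fintype X] (τ : X → Bool) (H : ℝ) (b : X → ℝ) (hb0 : ∀ x, 0 ≤ b x)
    (hbH : ∀ x, b x ≤ H) (hH : 0 ≤ H) : IsL1 (circ τ H b) :=
  circ_isL1_aux τ _ H b hb0 hbH hH rfl

end Vale.Agent.Lib.P235
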