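import Mathlib

/-!
# P235, theta graphs: from the position on a path to the coordinates `(τ, b, u)`
A path of length `L` from `s` to `t`, `D = d(s,t) ≤ L`, a point at distance `p` from `s` along it.
-/

namespace Vale.Agent.Lib.P235

noncomputable def cH (L D : ℝ) : ℝ := (L - D) / 2

noncomputable def cu (L D p : ℝ) : ℝ := max 0 (min (p - cH L D) D)

noncomputable def cτ (L D p : ℝ) : Bool := decide (p ≤ cH L D + D)

noncomputable def cb (L D p : ℝ) : ℝ :=
  if p ≤ cH L D + D then min p (cH L D) else p - cH L D - D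

/-- LEAF H1 -/
theorem cu_mem (L D p : ℝ) (hD : 0 ≤ D) : 0 ≤ cu L D p ∧ cu L D p ≤ D := by
  unfold cu
  exact ⟨le_max_left _ _, max_le hD (min_le_right _ _)⟩

/-- LEAF H2 -/
theorem cb_mem (L D p : ℝ) (hD : 0 ≤ D) (hL : D ≤ L) (hp0 : 0 ≤ p) (hpL : p ≤ L) :
    0 ≤ cb L D p ∧ cb L D p ≤ cH L D := by
  unfold cb cH
  split_ifs with h
  · exact ⟨le_min hp0 (by linarith), min_le_right _ _⟩
  · have h' := not_le.mp h
    constructor <;> linarith

/-- LEAF H4 -/
theorem c_alpha (L D p : ℝ) (hD : 0 ≤ D) (hL : D ≤ L) (hp0 : 0 ≤ p) (hpL : p ≤ L) :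
    min p (L - p + D)
      = (if cτ L D p = true then cb L D p else cH L D - cb L D p) + cu L D p := by
  by_cases h : p ≤ cH L D + D
  · have ht : cτ L D p = true := by simp [cτ, h]
    rw [if_pos ht]
    simp only [cb, cu, if_pos h]
    unfold cH at *
    simp only [min_def, max_def]
    split_ifs <;> linarith
  · have ht : ¬ cτ L D p = true := by simp [cτ, h]
    rw [if_neg ht]
    simp only [cb, cu, if_neg h]
    unfold cH at *
    simp only [min_def, max_def]
    split_ifs <;> linarith

/-- LEAF H5 -/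
theorem c_beta (L D p : ℝ) (hD : 0 ≤ D) (hL : D ≤ L) (hp0 : 0 ≤ p) (hpL : p ≤ L) :
    min (L - p) (p + D)
      = (if cτ L D p = true then cb L D p else cH L D - cb L D p) + (D - cu L D p) := by
  by_cases h : p ≤ cH L D + D
  · have ht : cτ L D p = true := by simp [cτ, h]
    rw [if_pos ht]
    simp only [cb, cu, if_pos h]
    unfold cH at *
    simp only [min_def, max_def]
    split_ifs <;> linarith
  · have ht : ¬ cτ L D p = true := by simp [cτ, h]
    rw [if_neg ht]
    simp only [cb, cu, if_neg h]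
    unfold cH at *
    simp only [min_def, max_def]
    split_ifs <;> linarith

end Vale.Agent.Lib.P235
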