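import Vale.Agent.Lib.P235.Theta.Coords

namespace Vale.Agent.Lib.P235

theorem c_reg1 (L D p : ℝ) (hD : 0 ≤ D) (h : p ≤ cH L D) :
    cτ L D p = true ∧ cb L D p = p ∧ cu L D p = 0 := by
  have h' : p ≤ cH L D + D := by linarith
  refine ⟨by simp [cτ, h'], ?_, ?_⟩
  · rw [cb, if_pos h', min_eq_left h]
  · rw [cu, max_eq_left]
    exact le_trans (min_le_left _ _) (by linarith)

theorem c_reg2 (L D p : ℝ) (h1 : cH L D ≤ p) (h2 : p ≤ cH L D + D) :
    cτ L D p = true ∧ cb L D p = cH L D ∧ cu L D p = p - cH L D := by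
  refine ⟨by simp [cτ, h2], ?_, ?_⟩
  · rw [cb, if_pos h2, min_eq_right h1]
  · rw [cu, min_eq_left (by linarith), max_eq_right (by linarith)]

theorem c_reg3 (L D p : ℝ) (hD : 0 ≤ D) (h : cH L D + D < p) :
    cτ L D p = false ∧ cb L D p = p - cH L D - D ∧ cu L D p = D := by
  refine ⟨by simp [cτ, h], ?_, ?_⟩
  · rw [cb, if_neg (not_le.mpr h)]
  · rw [cu, min_eq_right (by linarith), max_eq_right hD]

theorem c_regs (L D p : ℝ) (hD : 0 ≤ D) :
    (p ≤ cH L D ∧ cτ L D p = true ∧ cb L D p = p ∧ cu L D p = 0) ∨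
    (cH L D ≤ p ∧ p ≤ cH L D + D ∧ cτ L D p = true ∧ cb L D p = cH L D ∧
      cu L D p = p - cH L D) ∨
    (cH L D + D < p ∧ cτ L D p = false ∧ cb L D p = p - cH L D - D ∧ cu L D p = D) := by
  rcases le_total p (cH L D) with h | h
  · exact Or.inl ⟨h, c_reg1 L D p hD h⟩
  · rcases le_or_gt p (cH L D + D) with h2 | h2
    · exact Or.inr (Or.inl ⟨h, h2, c_reg2 L D p h h2⟩)
    · exact Or.inr (Or.inr ⟨h2, c_reg3 L D p hD h2⟩)

/-- LEAF H3: three regimes for each of `p`, `q`: `p ≤ cH`, `cH ≤ p ≤ cH + D`, `cH + D < p` -/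
theorem c_same (L D p q : ℝ) (hD : 0 ≤ D) (hL : D ≤ L) (hp0 : 0 ≤ p) (hpL : p ≤ L)
    (hq0 : 0 ≤ q) (hqL : q ≤ L) :
    min |p - q| (L + D - |p - q|)
      = (if cτ L D p = cτ L D q then |cb L D p - cb L D q|
          else cH L D - |cb L D p - cb L D q|) + |cu L D p - cu L D q| := by
  have hH : cH L D = (L - D) / 2 := rfl
  rcases c_regs L D p hD with ⟨a1, a2, a3, a4⟩ | ⟨a0, a1, a2, a3, a4⟩ | ⟨a1, a2, a3, a4⟩ <;>
  rcases c_regs L D q hD with ⟨b1, b2, b3, b4⟩ | ⟨b0, b1, b2, b3, b4⟩ | ⟨b1, b2, b3, b4⟩ <;>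
  rw [a2, a3, a4, b2, b3, b4] <;>
  simp only [if_true, Bool.true_eq_false, Bool.false_eq_true, if_false] <;>
  generalize cH L D = H at * <;>
  simp only [min_def, abs_eq_max_neg, max_def] <;>
  split_ifs <;> linarith

end Vale.Agent.Lib.P235
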