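import Vale.Agent.Lib.P235.Theta.Basic

namespace Vale.Agent.Lib.P235

variable {X I : Type}

/-- LEAF A: finite sums of `ℓ₁` semimetrics -/
theorem IsL1.finsum [Fintype I] (N : I → X → X → ℝ) (h : ∀ i, IsL1 (N i)) :
    IsL1 (fun x y => ∑ i, N i x y) := by
  classical
  choose ι hι f hf using h
  refine ⟨Σ i, ι i, inferInstance, fun x p => f p.1 x p.2, fun x y => ?_⟩
  show ∑ i, N i x y = ∑ p : Σ i, ι i, |f p.1 x p.2 - f p.1 y p.2|
  rw [Fintype.sum_sigma]
  exact Finset.sum_congr rfl fun i _ => hf i x y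

/-- LEAF E: coordinates `f x k = if k = cls x then c x else 0` -/
theorem tent_isL1 [Fintype I] [DecidableEq I] (cls : X → I) (c : X → ℝ) (hc : ∀ x, 0 ≤ c x) :
    IsL1 (tent cls c) := by
  refine ⟨I, inferInstance, fun x k => if k = cls x then c x else 0, fun x y => ?_⟩
  show tent cls c x y
    = ∑ k, |(if k = cls x then c x else 0) - (if k = cls y then c y else 0)|
  unfold tent
  by_cases hxy : cls x = cls y
  · rw [if_pos hxy, Finset.sum_eq_single (cls x)]
    · simp [hxy]
    · intro k _ hk
      have hk2 : k ≠ cls y := hxy ▸ hk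
      simp [hk, hk2]
    · intro h
      exact absurd (Finset.mem_univ _) h
  · rw [if_neg hxy, Finset.sum_eq_add (cls x) (cls y) hxy]
    · have hyx : cls y ≠ cls x := fun h => hxy h.symm
      simp [hxy, hyx, abs_of_nonneg (hc x), abs_of_nonneg (hc y)]
    · intro k _ hk
      simp [hk.1, hk.2]
    · intro h
      exact absurd (Finset.mem_univ _) h
    · intro h
      exact absurd (Finset.mem_univ _) h

end Vale.Agent.Lib.P235
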