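import Vale.Agent.Lib.P235.Walk

/-!
# P235: generalized theta graphs as graphs with a layout
-/

namespace Vale.Agent.Lib.P235

variable {X : Type}

/-- `x` lies on the closed arc `i` (the terminals `s`, `t` lie on every arc) -/
def onArc {n : ℕ} (s t : X) (path : X → Fin n) (i : Fin n) (x : X) : Prop :=
  x = s ∨ x = t ∨ path x = i

/-- the position of `x` on the closed arc `i`: `0` for `s`, `L i` for `t`, `pos x` otherwise -/
def arcPos [DecidableEq X] {n : ℕ} (s t : X) (pos : X → ℝ) (L : Fin n → ℝ) (i : Fin n)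
    (x : X) : ℝ :=
  if x = s then 0 else if x = t then L i else pos x

/-- `G` with the edge lengths `ℓ` is a generalized theta graph: `n` internally disjoint arcs from
`s` to `t`; the inner vertex `x` lies on the arc `path x` at distance `pos x` from `s` along it;
`L i` is the length of the arc `i`. -/
structure IsTheta [DecidableEq X] {n : ℕ} (G : SimpleGraph X) (ℓ : X → X → ℝ) (s t : X)
    (path : X → Fin n) (pos : X → ℝ) (L : Fin n → ℝ) : Prop where
  hst : s ≠ t
  hpos : ∀ x, x ≠ s → x ≠ t → 0 < pos x ∧ pos x < L (path x)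
  hinj : ∀ x y, x ≠ s → x ≠ t → y ≠ s → y ≠ t → path x = path y → pos x = pos y → x = y
  hne : ∀ i, ∃ x, x ≠ s ∧ x ≠ t ∧ path x = i
  hadj : ∀ x y, G.Adj x y ↔ ∃ i, onArc s t path i x ∧ onArc s t path i y ∧
    arcPos s t pos L i x ≠ arcPos s t pos L i y ∧
    ∀ z, onArc s t path i z →
      ¬ (min (arcPos s t pos L i x) (arcPos s t pos L i y) < arcPos s t pos L i z ∧
        arcPos s t pos L i z < max (arcPos s t pos L i x) (arcPos s t pos L i y))
  hlen : ∀ i x y, G.Adj x y → onArc s t path i x → onArc s t path i y →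
    ℓ x y = |arcPos s t pos L i x - arcPos s t pos L i y|

noncomputable def tA (L D p : ℝ) : ℝ := min p (L - p + D)

noncomputable def tB (L D p : ℝ) : ℝ := min (L - p) (p + D)

/-- the distance formula of the theta graph -/
noncomputable def tPhi {n : ℕ} (L : Fin n → ℝ) (D : ℝ) (i : Fin n) (p : ℝ) (j : Fin n)
    (q : ℝ) : ℝ :=
  if i = j then min |p - q| (L i + D - |p - q|)
  else min (tA (L i) D p + tA (L j) D q) (tB (L i) D p + tB (L j) D q)

/-- the formula evaluated at two vertices -/
noncomputable def tDelta [DecidableEq X] {n : ℕ} (s t : X) (path : X → Fin n) (pos : X → ℝ)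
    (L : Fin n → ℝ) (D : ℝ) (x y : X) : ℝ :=
  tPhi L D (path x) (arcPos s t pos L (path x) x) (path y) (arcPos s t pos L (path y) y)

end Vale.Agent.Lib.P235
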