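import Vale.Agent.Lib.P235.Theta.GDefs

namespace Vale.Agent.Lib.P235

theorem tA_lip (L D p p' : ℝ) : tA L D p ≤ |p - p'| + tA L D p' := by
  unfold tA
  simp only [min_def, abs_eq_max_neg, max_def]
  split_ifs <;> linarith

theorem tB_lip (L D p p' : ℝ) : tB L D p ≤ |p - p'| + tB L D p' := by
  unfold tB
  simp only [min_def, abs_eq_max_neg, max_def]
  split_ifs <;> linarith

theorem tSame_lip (M p p' q : ℝ) :
    min |p - q| (M - |p - q|) ≤ |p - p'| + min |p' - q| (M - |p' - q|) := by
  simp only [min_def, abs_eq_max_neg, max_def]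
  split_ifs <;> linarith

/-- LEAF R3: the formula is 1-Lipschitz in the position of the first point -/
theorem tPhi_lip {n : ℕ} (L : Fin n → ℝ) (D : ℝ) (hD : 0 ≤ D) (hL : ∀ i, D ≤ L i)
    (i j : Fin n) (p p' q : ℝ) :
    tPhi L D i p j q ≤ |p - p'| + tPhi L D i p' j q := by
  unfold tPhi
  split_ifs with h
  · exact tSame_lip (L i + D) p p' q
  · rw [← min_add_add_left]
    have h1 := tA_lip (L i) D p p'
    have h2 := tB_lip (L i) D p p'
    exact min_le_min (by linarith) (by linarith)

end Vale.Agent.Lib.P235
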