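import Vale.Agent.Lib.P235.Theta.ArcBasic
import Vale.Agent.Lib.P235.Theta.PhiLip

namespace Vale.Agent.Lib.P235

variable {X : Type} [DecidableEq X] {n : ℕ} {G : SimpleGraph X} {ℓ : X → X → ℝ} {s t : X}
  {path : X → Fin n} {pos : X → ℝ} {L : Fin n → ℝ}

/-- LEAF G5: hadj gives an arc `i` containing `x` and `v`; hlen; delta_eq for `x` and `v`;
tPhi_lip -/
theorem IsTheta.edge_lip (h : IsTheta G ℓ s t path pos L) (D : ℝ) (hD : 0 ≤ D)
    (hL : ∀ i, D ≤ L i) (x v y : X) (hadj : G.Adj x v) :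
    tDelta s t path pos L D x y ≤ ℓ x v + tDelta s t path pos L D v y := by
  obtain ⟨i, hx, hv, -, -⟩ := (h.hadj x v).mp hadj
  rw [h.hlen i x v hadj hx hv, h.delta_eq D hD hL i x y hx, h.delta_eq D hD hL i v y hv]
  exact tPhi_lip L D hD hL i (path y) _ _ _

/-- LEAF G4: induction on the walk (nil: tPhi_self; cons: edge_lip) -/
theorem IsTheta.delta_le_walk (h : IsTheta G ℓ s t path pos L) (D : ℝ) (hD : 0 ≤ D)
    (hL : ∀ i, D ≤ L i) {x y : X} (p : G.Walk x y) :
    tDelta s t path pos L D x y ≤ walkLen ℓ p := by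
  induction p with
  | nil =>
    unfold tDelta
    rw [tPhi_self L D hD hL]
    exact le_of_eq rfl
  | cons hadj q ih =>
    refine (h.edge_lip D hD hL _ _ _ hadj).trans ?_
    show _ ≤ ℓ _ _ + walkLen ℓ q
    linarith

end Vale.Agent.Lib.P235
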