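import Vale.Agent.Lib.P235.Theta.Struct
import Vale.Agent.Lib.P235.Theta.CoordsSame
import Vale.Agent.Lib.P235.Cover

/-!
# P235, theta graphs: the embedding theorem for the explicit theta metric
-/

namespace Vale.Agent.Lib.P235

theorem theta_main {X : Type} [Fintype X] (d : X → X → ℝ) (n : ℕ) (path : X → Fin n)
    (L : Fin n → ℝ) (D : ℝ) (hD : 0 ≤ D) (hL : ∀ i, D ≤ L i) (pos : X → ℝ)
    (hpos : ∀ x, 0 ≤ pos x ∧ pos x ≤ L (path x))
    (hsame : ∀ x y, path x = path y →
      d x y = min |pos x - pos y| (L (path x) + D - |pos x - pos y|))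
    (hdiff : ∀ x y, path x ≠ path y →
      d x y = min (min (pos x) (L (path x) - pos x + D) + min (pos y) (L (path y) - pos y + D))
        (min (L (path x) - pos x) (pos x + D) + min (L (path y) - pos y) (pos y + D))) :
    ∃ (m : ℕ) (f : X → Fin m → ℝ), ∀ x y,
      d x y ≤ ∑ k, |f x k - f y k| ∧ ∑ k, |f x k - f y k| ≤ 3 / 2 * d x y := by
  obtain ⟨V, hV1, hV⟩ := theta_struct d path
    (fun x => cτ (L (path x)) D (pos x)) (fun i => cH (L i) D)
    (fun x => cb (L (path x)) D (pos x)) (fun x => cu (L (path x)) D (pos x)) D hD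
    (fun i => by unfold cH; linarith [hL i])
    (fun x => (cb_mem _ D _ hD (hL _) (hpos x).1 (hpos x).2).1)
    (fun x => (cb_mem _ D _ hD (hL _) (hpos x).1 (hpos x).2).2)
    (fun x => (cu_mem _ D _ hD).1) (fun x => (cu_mem _ D _ hD).2)
    (fun x y hxy => by
      have hy := hpos y
      rw [← hxy] at hy
      rw [hsame x y hxy, c_same (L (path x)) D (pos x) (pos y) hD (hL _) (hpos x).1 (hpos x).2
        hy.1 hy.2]
      unfold circ
      beta_reduce
      rw [← hxy])
    (fun x y hxy => by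
      rw [hdiff x y hxy, c_alpha _ D _ hD (hL _) (hpos x).1 (hpos x).2,
        c_alpha _ D _ hD (hL _) (hpos y).1 (hpos y).2,
        c_beta _ D _ hD (hL _) (hpos x).1 (hpos x).2,
        c_beta _ D _ hD (hL _) (hpos y).1 (hpos y).2, ← min_add_add_left]
      congr 1 <;> ring)
  obtain ⟨m, f, hf⟩ := hV1.toFin
  refine ⟨m, f, fun x y => ?_⟩
  rw [← hf x y]
  exact hV x y

end Vale.Agent.Lib.P235
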