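import Vale.Agent.Lib.P235.Theta.GUpper
import Vale.Agent.Lib.P235.Theta.GLower
import Vale.Agent.Lib.P235.Theta.Main

namespace Vale.Agent.Lib.P235

variable {X : Type} [DecidableEq X] {n : ℕ} {G : SimpleGraph X} {ℓ : X → X → ℝ} {s t : X}
  {path : X → Fin n} {pos : X → ℝ} {L : Fin n → ℝ}

theorem IsTheta.dist_eq [Fintype X] [MetricSpace X] (h : IsTheta G ℓ s t path pos L)
    (hd : ∀ x y, IsGLB (Set.range (fun p : G.Walk x y => walkLen ℓ p)) (dist x y)) (x y : X) :
    dist x y = tDelta s t path pos L (dist s t) x y := by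
  apply le_antisymm (h.dist_le_delta hd x y)
  apply (hd x y).2
  rintro _ ⟨p, rfl⟩
  exact h.delta_le_walk (dist s t) dist_nonneg (h.D_le hd) p

theorem theta_graph_main [Fintype X] [MetricSpace X] (h : IsTheta G ℓ s t path pos L)
    (hd : ∀ x y, IsGLB (Set.range (fun p : G.Walk x y => walkLen ℓ p)) (dist x y)) :
    ∃ (m : ℕ) (f : X → Fin m → ℝ), ∀ x y,
      dist x y ≤ ∑ k, |f x k - f y k| ∧ ∑ k, |f x k - f y k| ≤ 3 / 2 * dist x y := by
  refine theta_main (fun x y => dist x y) n path L (dist s t) dist_nonneg (h.D_le hd)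
    (fun x => arcPos s t pos L (path x) x)
    (fun x => h.arcPos_mem (path x) x (onArc_self s t path x)) ?_ ?_
  · intro x y hxy
    show dist x y = _
    rw [h.dist_eq hd x y]
    unfold tDelta tPhi
    rw [if_pos hxy]
  · intro x y hxy
    show dist x y = _
    rw [h.dist_eq hd x y]
    unfold tDelta tPhi tA tB
    rw [if_neg hxy]

end Vale.Agent.Lib.P235
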