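import Vale.Agent.Lib.P235.Theta.ArcWalk

namespace Vale.Agent.Lib.P235

variable {X : Type} [DecidableEq X] {n : ℕ} {G : SimpleGraph X} {ℓ : X → X → ℝ} {s t : X}
  {path : X → Fin n} {pos : X → ℝ} {L : Fin n → ℝ}

theorem arcPos_at_s (s t : X) (pos : X → ℝ) (L : Fin n → ℝ) (i : Fin n) :
    arcPos s t pos L i s = 0 := by
  simp [arcPos]

theorem arcPos_at_t (hst : s ≠ t) (pos : X → ℝ) (L : Fin n → ℝ) (i : Fin n) :
    arcPos s t pos L i t = L i := by
  simp [arcPos, hst.symm]

/-- along the arc `i` to the two terminals -/
theorem IsTheta.dist_term_le [Fintype X] [MetricSpace X] (h : IsTheta G ℓ s t path pos L)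
    (hd : ∀ x y, IsGLB (Set.range (fun p : G.Walk x y => walkLen ℓ p)) (dist x y))
    (i : Fin n) (x : X) (hx : onArc s t path i x) :
    dist x s ≤ arcPos s t pos L i x ∧ dist x t ≤ L i - arcPos s t pos L i x := by
  have hm := h.arcPos_mem i x hx
  constructor
  · have h1 := h.dist_le_arc hd i s x (Or.inl rfl) hx (by rw [arcPos_at_s]; exact hm.1)
    rw [arcPos_at_s, dist_comm] at h1
    linarith
  · have h1 := h.dist_le_arc hd i x t hx (Or.inr (Or.inl rfl))
      (by rw [arcPos_at_t h.hst]; exact hm.2)
    rw [arcPos_at_t h.hst] at h1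
    exact h1

/-- LEAF G8 (dist_le_arc with `x = s`, `y = t`) -/
theorem IsTheta.D_le [Fintype X] [MetricSpace X] (h : IsTheta G ℓ s t path pos L)
    (hd : ∀ x y, IsGLB (Set.range (fun p : G.Walk x y => walkLen ℓ p)) (dist x y))
    (i : Fin n) : dist s t ≤ L i := by
  have h1 := (h.dist_term_le hd i s (Or.inl rfl)).2
  rw [arcPos_at_s] at h1
  linarith

/-- LEAF G7a: `d(x,s) ≤ A x` and `d(x,t) ≤ B x` (dist_le_arc on the arc `path x`, triangle
inequality through the other terminal) -/
theorem IsTheta.dist_s_le [Fintype X] [MetricSpace X] (h : IsTheta G ℓ s t path pos L)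
    (hd : ∀ x y, IsGLB (Set.range (fun p : G.Walk x y => walkLen ℓ p)) (dist x y)) (x : X) :
    dist x s ≤ tA (L (path x)) (dist s t) (arcPos s t pos L (path x) x)
      ∧ dist x t ≤ tB (L (path x)) (dist s t) (arcPos s t pos L (path x) x) := by
  obtain ⟨h1, h2⟩ := h.dist_term_le hd (path x) x (onArc_self s t path x)
  have h3 : dist x s ≤ dist x t + dist t s := dist_triangle x t s
  have h4 : dist x t ≤ dist x s + dist s t := dist_triangle x s t
  rw [dist_comm t s] at h3
  constructor
  · unfold tA
    exact le_min h1 (by linarith)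
  · unfold tB
    exact le_min h2 (by linarith)

/-- LEAF G7b: unfold tDelta, tPhi.  Same arc: dist_le_arc (both orders) and the way round
`x - s - t - y` or `x - t - s - y`.  Different arcs: triangle inequality through `s`, through `t`,
and dist_s_le. -/
theorem IsTheta.dist_le_delta [Fintype X] [MetricSpace X] (h : IsTheta G ℓ s t path pos L)
    (hd : ∀ x y, IsGLB (Set.range (fun p : G.Walk x y => walkLen ℓ p)) (dist x y)) (x y : X) :
    dist x y ≤ tDelta s t path pos L (dist s t) x y := by
  unfold tDelta tPhi
  split_ifs with hij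
  · have hx : onArc s t path (path x) x := onArc_self s t path x
    have hy : onArc s t path (path x) y := Or.inr (Or.inr hij.symm)
    rw [← hij]
    obtain ⟨x1, x2⟩ := h.dist_term_le hd (path x) x hx
    obtain ⟨y1, y2⟩ := h.dist_term_le hd (path x) y hy
    have t1 : dist x y ≤ dist x s + dist s t + dist t y := dist_triangle4 x s t y
    have t2 : dist x y ≤ dist x t + dist t s + dist s y := dist_triangle4 x t s y
    rw [dist_comm t y] at t1
    rw [dist_comm t s, dist_comm s y] at t2
    rcases le_total (arcPos s t pos L (path x) x) (arcPos s t pos L (path x) y) with hle | hle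
    · have h1 := h.dist_le_arc hd (path x) x y hx hy hle
      have habs : |arcPos s t pos L (path x) x - arcPos s t pos L (path x) y|
          = arcPos s t pos L (path x) y - arcPos s t pos L (path x) x := by
        rw [abs_of_nonpos (by linarith)]
        ring
      rw [habs]
      exact le_min h1 (by linarith)
    · have h1 := h.dist_le_arc hd (path x) y x hy hx hle
      rw [dist_comm] at h1
      have habs : |arcPos s t pos L (path x) x - arcPos s t pos L (path x) y|
          = arcPos s t pos L (path x) x - arcPos s t pos L (path x) y :=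
        abs_of_nonneg (by linarith)
      rw [habs]
      exact le_min h1 (by linarith)
  · obtain ⟨x1, x2⟩ := h.dist_s_le hd x
    obtain ⟨y1, y2⟩ := h.dist_s_le hd y
    have t1 : dist x y ≤ dist x s + dist s y := dist_triangle x s y
    have t2 : dist x y ≤ dist x t + dist t y := dist_triangle x t y
    rw [dist_comm s y] at t1
    rw [dist_comm t y] at t2
    exact le_min (by linarith) (by linarith)

end Vale.Agent.Lib.P235
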