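import Vale.Agent.Lib.P235.Theta.Basic
import Vale.Agent.Lib.P235.Kappa

/-!
# P235, theta graphs: one level with classes is `ℓ₁`
-/

namespace Vale.Agent.Lib.P235

variable {X I : Type}

/-- side of `z` in the random cut `ε`: the undecided points of a class follow the bit of the
class, the decided points follow `σ` -/
def valc (cls : X → I) (und σ : X → Bool) (z : X) (ε : I → Bool) : ℝ :=
  if und z = true then (if ε (cls z) = true then 1 else 0) else (if σ z = true then 1 else 0)

theorem sum_valc [Fintype I] [DecidableEq I] (cls : X → I) (und σ : X → Bool) (x y : X)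
    (hx : und x = true) (hy : und y ≠ true ∨ cls y ≠ cls x) :
    ∑ ε : I → Bool, |valc cls und σ x ε - valc cls und σ y ε|
      = (Fintype.card (I → Bool) : ℝ) / 2 := by
  refine sum_half (fun ε : I → Bool => Function.update ε (cls x) (!ε (cls x)))
    (flip_inv (cls x)) (fun ε => |valc cls und σ x ε - valc cls und σ y ε|) ?_
  intro ε
  show |valc cls und σ x ε - valc cls und σ y ε|
    + |valc cls und σ x (Function.update ε (cls x) (!ε (cls x)))
      - valc cls und σ y (Function.update ε (cls x) (!ε (cls x)))| = 1
  have hy' : valc cls und σ y (Function.update ε (cls x) (!ε (cls x))) = valc cls und σ y ε := by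
    unfold valc
    rcases hy with h | h
    · rw [if_neg h, if_neg h]
    · rw [Function.update_of_ne h]
  have hx1 : valc cls und σ x ε = if ε (cls x) = true then 1 else 0 := by
    unfold valc
    rw [if_pos hx]
  have hx2 : valc cls und σ x (Function.update ε (cls x) (!ε (cls x)))
      = if ε (cls x) = true then 0 else 1 := by
    unfold valc
    rw [if_pos hx, Function.update_self]
    cases ε (cls x) <;> simp
  have hy01 : valc cls und σ y ε = 0 ∨ valc cls und σ y ε = 1 := by
    unfold valc
    split_ifs <;> simp
  rw [hy', hx1, hx2]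
  rcases hy01 with h | h <;> rw [h] <;> cases ε (cls x) <;> norm_num

theorem kapc_isL1 [Fintype I] [DecidableEq I] (cls : X → I) (und σ : X → Bool) :
    IsL1 (kapc cls und σ) := by
  have hK : (0 : ℝ) < (Fintype.card (I → Bool) : ℝ) := by
    exact_mod_cast Fintype.card_pos
  refine ⟨I → Bool, inferInstance,
    fun z ε => 2 / (Fintype.card (I → Bool) : ℝ) * valc cls und σ z ε, fun x y => ?_⟩
  show kapc cls und σ x y = ∑ ε : I → Bool, |2 / (Fintype.card (I → Bool) : ℝ) * valc cls und σ x ε
    - 2 / (Fintype.card (I → Bool) : ℝ) * valc cls und σ y ε|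
  have hsum : ∑ ε : I → Bool, |2 / (Fintype.card (I → Bool) : ℝ) * valc cls und σ x ε
      - 2 / (Fintype.card (I → Bool) : ℝ) * valc cls und σ y ε|
      = 2 / (Fintype.card (I → Bool) : ℝ)
        * ∑ ε : I → Bool, |valc cls und σ x ε - valc cls und σ y ε| := by
    rw [Finset.mul_sum]
    refine Finset.sum_congr rfl fun ε _ => ?_
    rw [← mul_sub, abs_mul, abs_of_nonneg (by positivity)]
  rw [hsum]
  have hswap : ∑ ε : I → Bool, |valc cls und σ x ε - valc cls und σ y ε|
      = ∑ ε : I → Bool, |valc cls und σ y ε - valc cls und σ x ε| :=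
    Finset.sum_congr rfl fun ε _ => abs_sub_comm _ _
  unfold kapc
  by_cases hx : und x = true
  · by_cases hy : und y = true
    · rw [if_pos ⟨hx, hy⟩]
      by_cases hc : cls x = cls y
      · rw [if_pos hc]
        have hv : ∀ ε, valc cls und σ x ε = valc cls und σ y ε := by
          intro ε
          unfold valc
          rw [if_pos hx, if_pos hy, hc]
        simp [hv]
      · rw [if_neg hc, sum_valc cls und σ x y hx (Or.inr (Ne.symm hc))]
        field_simp
    · rw [if_neg (fun h => hy h.2), if_pos (Or.inl hx), sum_valc cls und σ x y hx (Or.inl hy)]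
      field_simp
  · by_cases hy : und y = true
    · rw [if_neg (fun h => hx h.1), if_pos (Or.inr hy), hswap,
        sum_valc cls und σ y x hy (Or.inl hx)]
      field_simp
    · rw [if_neg (fun h => hx h.1), if_neg (by tauto)]
      have hvx : ∀ ε, valc cls und σ x ε = if σ x = true then 1 else 0 := by
        intro ε
        unfold valc
        rw [if_neg hx]
      have hvy : ∀ ε, valc cls und σ y ε = if σ y = true then 1 else 0 := by
        intro ε
        unfold valc
        rw [if_neg hy]
      simp only [hvx, hvy]
      by_cases hs : σ x = σ y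
      · rw [if_pos hs, hs]
        simp
      · rw [if_neg hs]
        have h1 : |(if σ x = true then (1 : ℝ) else 0) - (if σ y = true then (1 : ℝ) else 0)|
            = 1 := by
          cases hsx : σ x <;> cases hsy : σ y <;> simp_all
        rw [h1]
        simp

end Vale.Agent.Lib.P235
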