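import Vale.Agent.Lib.P235.Theta.KapC

/-!
# P235, theta graphs: the level decomposition with classes
-/

namespace Vale.Agent.Lib.P235

variable {X I : Type}

theorem kapc_nn [DecidableEq I] (cls : X → I) (und σ : X → Bool) (x y : X)
    (cx : ¬ und x = true) (cy : ¬ und y = true) :
    kapc cls und σ x y = if σ x = σ y then 0 else 2 := by
  unfold kapc
  rw [if_neg (fun h => cx h.1), if_neg (by tauto)]

theorem kapc_ny [DecidableEq I] (cls : X → I) (und σ : X → Bool) (x y : X)
    (cx : ¬ und x = true) (cy : und y = true) : kapc cls und σ x y = 1 := by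
  unfold kapc
  rw [if_neg (fun h => cx h.1), if_pos (Or.inr cy)]

theorem kapc_yn [DecidableEq I] (cls : X → I) (und σ : X → Bool) (x y : X)
    (cx : und x = true) (cy : ¬ und y = true) : kapc cls und σ x y = 1 := by
  unfold kapc
  rw [if_neg (fun h => cy h.2), if_pos (Or.inl cx)]

theorem kapc_yy [DecidableEq I] (cls : X → I) (und σ : X → Bool) (x y : X)
    (cx : und x = true) (cy : und y = true) :
    kapc cls und σ x y = if cls x = cls y then 0 else 1 := by
  unfold kapc
  rw [if_pos ⟨cx, cy⟩]

theorem Nc_isL1_aux [Fintype X] [Fintype I] [DecidableEq I] (cls : X → I) (σ : X → Bool)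
    (n : ℕ) :
    ∀ (W : ℝ) (w : X → ℝ), (∀ x, 0 ≤ w x) → (∀ x, w x ≤ W) → 0 ≤ W →
      (Finset.univ.filter (fun x => 0 < w x)).card = n → IsL1 (Nc cls σ W w) := by
  induction n using Nat.strong_induction_on with
  | _ n ih =>
    intro W w hw0 hwW hW hn
    by_cases hS : (Finset.univ.filter (fun x => 0 < w x)).Nonempty
    · obtain ⟨x0, hx0, hmin⟩ := Finset.exists_min_image _ w hS
      have hc : 0 < w x0 := (Finset.mem_filter.mp hx0).2
      have hmin' : ∀ x, 0 < w x → w x0 ≤ w x := fun x hx =>
        hmin x (Finset.mem_filter.mpr ⟨Finset.mem_univ x, hx⟩)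
      have hcard : (Finset.univ.filter (fun x => 0 < max (w x - w x0) 0)).card < n := by
        rw [← hn]
        apply Finset.card_lt_card
        rw [Finset.ssubset_iff_of_subset]
        · refine ⟨x0, hx0, ?_⟩
          simp
        · intro x hx
          rw [Finset.mem_filter] at hx ⊢
          refine ⟨Finset.mem_univ x, ?_⟩
          have h1 := hx.2
          rcases lt_max_iff.mp h1 with h | h
          · linarith
          · exact absurd h (lt_irrefl 0)
      have hrec : IsL1 (Nc cls σ (W - w x0) (fun x => max (w x - w x0) 0)) :=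
        ih _ hcard (W - w x0) (fun x => max (w x - w x0) 0)
          (fun x => le_max_right _ _)
          (fun x => max_le (by linarith [hwW x]) (by linarith [hwW x0]))
          (by linarith [hwW x0]) rfl
      have hk : IsL1 (fun x y => w x0 * kapc cls (fun z => decide (0 < w z)) σ x y) :=
        IsL1.smul hc.le (kapc_isL1 cls _ σ)
      refine IsL1.congr ?_ (hrec.add hk)
      intro x y
      show Nc cls σ (W - w x0) (fun x => max (w x - w x0) 0) x y
        + w x0 * kapc cls (fun z => decide (0 < w z)) σ x y = Nc cls σ W w x y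
      unfold Nc
      beta_reduce
      have hx1 : (w x = 0 ∧ max (w x - w x0) 0 = 0 ∧ ¬ (decide (0 < w x) = true))
          ∨ (w x0 ≤ w x ∧ max (w x - w x0) 0 = w x - w x0 ∧ decide (0 < w x) = true) := by
        rcases (hw0 x).eq_or_lt with h | h
        · left
          refine ⟨h.symm, ?_, ?_⟩
          · rw [← h]
            exact max_eq_right (by linarith)
          · simp [← h]
        · right
          exact ⟨hmin' x h, max_eq_left (by linarith [hmin' x h]), by simpa using h⟩
      have hy1 : (w y = 0 ∧ max (w y - w x0) 0 = 0 ∧ ¬ (decide (0 < w y) = true))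
          ∨ (w x0 ≤ w y ∧ max (w y - w x0) 0 = w y - w x0 ∧ decide (0 < w y) = true) := by
        rcases (hw0 y).eq_or_lt with h | h
        · left
          refine ⟨h.symm, ?_, ?_⟩
          · rw [← h]
            exact max_eq_right (by linarith)
          · simp [← h]
        · right
          exact ⟨hmin' y h, max_eq_left (by linarith [hmin' y h]), by simpa using h⟩
      rcases hx1 with ⟨ax, bx, cx⟩ | ⟨ax, bx, cx⟩ <;> rcases hy1 with ⟨ay, by', cy⟩ | ⟨ay, by', cy⟩
      · rw [kapc_nn cls _ σ x y cx cy, bx, by', ax, ay]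
        split_ifs <;> simp <;> ring
      · rw [kapc_ny cls _ σ x y cx cy, bx, by', ax,
          max_eq_right (by linarith : (0 : ℝ) ≤ w y - w x0),
          max_eq_right (by linarith : (0 : ℝ) ≤ w y),
          abs_of_nonpos (by linarith : (0 : ℝ) - (w y - w x0) ≤ 0),
          abs_of_nonpos (by linarith : (0 : ℝ) - w y ≤ 0)]
        split_ifs <;> ring
      · rw [kapc_yn cls _ σ x y cx cy, bx, by', ay,
          max_eq_left (by linarith : (0 : ℝ) ≤ w x - w x0),
          max_eq_left (by linarith : (0 : ℝ) ≤ w x),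
          abs_of_nonneg (by linarith : (0 : ℝ) ≤ (w x - w x0) - 0),
          abs_of_nonneg (by linarith : (0 : ℝ) ≤ w x - 0)]
        split_ifs <;> ring
      · rw [kapc_yy cls _ σ x y cx cy, bx, by', max_sub_sub_right,
          (by ring : w x - w x0 - (w y - w x0) = w x - w y)]
        split_ifs <;> ring
    · have hz : ∀ x, w x = 0 := by
        intro x
        by_contra h
        exact hS ⟨x, Finset.mem_filter.mpr
          ⟨Finset.mem_univ x, lt_of_le_of_ne (hw0 x) (Ne.symm h)⟩⟩
      have hk : IsL1 (fun x y => W * kapc cls (fun _ => false) σ x y) :=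
        IsL1.smul hW (kapc_isL1 cls _ σ)
      refine IsL1.congr ?_ hk
      intro x y
      show W * kapc cls (fun _ => false) σ x y = Nc cls σ W w x y
      unfold Nc kapc
      rw [hz x, hz y]
      split_ifs <;> simp_all <;> ring

theorem Nc_isL1 [Fintype X] [Fintype I] [DecidableEq I] (cls : X → I) (σ : X → Bool) (W : ℝ)
    (w : X → ℝ) (hw0 : ∀ x, 0 ≤ w x) (hwW : ∀ x, w x ≤ W) (hW : 0 ≤ W) :
    IsL1 (Nc cls σ W w) :=
  Nc_isL1_aux cls σ _ W w hw0 hwW hW rfl

end Vale.Agent.Lib.P235
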