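import Vale.Agent.Lib.P235.Theta.GDefs

namespace Vale.Agent.Lib.P235

/-- LEAF R1 -/
theorem tPhi_zero {n : ℕ} (L : Fin n → ℝ) (D : ℝ) (hD : 0 ≤ D) (hL : ∀ i, D ≤ L i)
    (i j : Fin n) (q : ℝ) (hq0 : 0 ≤ q) (hqL : q ≤ L j) :
    tPhi L D i 0 j q = tA (L j) D q := by
  have hi := hL i
  have hj := hL j
  unfold tPhi tA tB
  by_cases hij : i = j
  · subst hij
    rw [if_pos rfl, zero_sub, abs_neg, abs_of_nonneg hq0]
    congr 1
    ring
  · rw [if_neg hij]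
    simp only [min_def]
    split_ifs <;> linarith

/-- LEAF R2 -/
theorem tPhi_top {n : ℕ} (L : Fin n → ℝ) (D : ℝ) (hD : 0 ≤ D) (hL : ∀ i, D ≤ L i)
    (i j : Fin n) (q : ℝ) (hq0 : 0 ≤ q) (hqL : q ≤ L j) :
    tPhi L D i (L i) j q = tB (L j) D q := by
  have hi := hL i
  have hj := hL j
  unfold tPhi tA tB
  by_cases hij : i = j
  · subst hij
    rw [if_pos rfl, abs_of_nonneg (sub_nonneg.2 hqL)]
    congr 1
    ring
  · rw [if_neg hij]
    simp only [min_def]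
    split_ifs <;> linarith

/-- LEAF R4 -/
theorem tPhi_self {n : ℕ} (L : Fin n → ℝ) (D : ℝ) (hD : 0 ≤ D) (hL : ∀ i, D ≤ L i)
    (i : Fin n) (p : ℝ) : tPhi L D i p i p = 0 := by
  have hi := hL i
  unfold tPhi
  rw [if_pos rfl, sub_self, abs_zero, sub_zero]
  exact min_eq_left (by linarith)

end Vale.Agent.Lib.P235
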