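import Vale.Agent.Lib.P235.Theta.FinSum
import Vale.Agent.Lib.P235.Theta.Circ

namespace Vale.Agent.Lib.P235

variable {X I : Type}

/-- LEAF F1 (Finset.sum_eq_single (cls x)) -/
theorem Uc_same [Fintype I] [DecidableEq I] (cls : X → I) (τ : X → Bool) (H : I → ℝ)
    (b : X → ℝ) (x y : X) (h : cls x = cls y) :
    Uc cls τ H b x y = circ τ (H (cls x)) b x y := by
  unfold Uc
  rw [Finset.sum_eq_single (cls x)]
  · unfold circ
    simp [h]
  · intro i _ hi
    have hx : cls x ≠ i := fun e => hi e.symm
    have hy : cls y ≠ i := fun e => hi (h.trans e).symm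
    unfold circ
    simp [hx, hy]
  · intro h'
    exact absurd (Finset.mem_univ _) h'

/-- LEAF F2 (Finset.sum_eq_add (cls x) (cls y)) -/
theorem Uc_diff [Fintype I] [DecidableEq I] (cls : X → I) (τ : X → Bool) (H : I → ℝ)
    (b : X → ℝ) (hb0 : ∀ x, 0 ≤ b x) (x y : X) (h : cls x ≠ cls y) :
    Uc cls τ H b x y = (if τ x = true then b x else H (cls x) - b x)
      + (if τ y = true then b y else H (cls y) - b y) := by
  unfold Uc
  have hyx : cls y ≠ cls x := fun e => h e.symm
  rw [Finset.sum_eq_add (cls x) (cls y) h]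
  · unfold circ
    congr 1
    · simp only [if_true, if_neg hyx, sub_zero, abs_of_nonneg (hb0 x)]
    · simp only [if_true, if_neg h, zero_sub, abs_neg, abs_of_nonneg (hb0 y)]
      cases τ y <;> simp
  · intro i _ hi
    have hx : cls x ≠ i := fun e => hi.1 e.symm
    have hy : cls y ≠ i := fun e => hi.2 e.symm
    unfold circ
    simp [hx, hy]
  · intro h'
    exact absurd (Finset.mem_univ _) h'
  · intro h'
    exact absurd (Finset.mem_univ _) h'

/-- LEAF F3 (IsL1.finsum and circ_isL1) -/
theorem Uc_isL1 [Fintype X] [Fintype I] [DecidableEq I] (cls : X → I) (τ : X → Bool)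
    (H : I → ℝ) (b : X → ℝ) (hb0 : ∀ x, 0 ≤ b x) (hbH : ∀ x, b x ≤ H (cls x))
    (hH : ∀ i, 0 ≤ H i) : IsL1 (Uc cls τ H b) := by
  have key := IsL1.finsum
    (fun i => circ (fun z => if cls z = i then τ z else true) (H i)
      (fun z => if cls z = i then b z else 0))
    (fun i => circ_isL1 _ (H i) _ ?_ ?_ (hH i))
  · exact key
  · intro z
    show 0 ≤ (if cls z = i then b z else 0)
    split_ifs
    · exact hb0 z
    · exact le_refl _
  · intro z
    show (if cls z = i then b z else 0) ≤ H i
    split_ifs with hz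
    · rw [← hz]; exact hbH z
    · exact hH i

end Vale.Agent.Lib.P235
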