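import Vale.Agent.Lib.P235.Theta.NC
import Vale.Agent.Lib.P235.Theta.UFacts

/-!
# P235, theta graphs: the structural embedding lemma
-/

namespace Vale.Agent.Lib.P235

theorem min_formula' (D a b : ℝ) :
    min (a + b) (2 * D - a - b) =
      if (decide (a ≤ D / 2) = decide (b ≤ D / 2)) then min a (D - a) + min b (D - b)
      else 2 * (D / 2) - |min a (D - a) - min b (D - b)| := by
  by_cases ha : a ≤ D / 2 <;> by_cases hb : b ≤ D / 2
  · have hc : decide (a ≤ D / 2) = decide (b ≤ D / 2) := by simp [ha, hb]
    rw [if_pos hc, min_eq_left (by linarith : a ≤ D - a), min_eq_left (by linarith : b ≤ D - b),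
      min_eq_left (by linarith)]
  · have hc : ¬ (decide (a ≤ D / 2) = decide (b ≤ D / 2)) := by simp [ha, hb]
    have hb := not_le.mp hb
    rw [if_neg hc, min_eq_left (by linarith : a ≤ D - a),
      min_eq_right (by linarith : D - b ≤ b)]
    rcases le_total (a + b) D with h | h
    · rw [min_eq_left (by linarith), abs_of_nonpos (by linarith)]
      ring
    · rw [min_eq_right (by linarith), abs_of_nonneg (by linarith)]
      ring
  · have hc : ¬ (decide (a ≤ D / 2) = decide (b ≤ D / 2)) := by simp [ha, hb]
    have ha := not_le.mp ha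
    rw [if_neg hc, min_eq_right (by linarith : D - a ≤ a),
      min_eq_left (by linarith : b ≤ D - b)]
    rcases le_total (a + b) D with h | h
    · rw [min_eq_left (by linarith), abs_of_nonneg (by linarith)]
      ring
    · rw [min_eq_right (by linarith), abs_of_nonpos (by linarith)]
      ring
  · have hc : decide (a ≤ D / 2) = decide (b ≤ D / 2) := by simp [ha, hb]
    have ha := not_le.mp ha
    have hb := not_le.mp hb
    rw [if_pos hc, min_eq_right (by linarith : D - a ≤ a),
      min_eq_right (by linarith : D - b ≤ b), min_eq_right (by linarith)]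
    ring

theorem same_formula (D a b : ℝ) :
    (if (decide (a ≤ D / 2) = decide (b ≤ D / 2)) then |min a (D - a) - min b (D - b)|
      else 2 * (D / 2) - min a (D - a) - min b (D - b)) = |a - b| := by
  by_cases ha : a ≤ D / 2 <;> by_cases hb : b ≤ D / 2
  · have hc : decide (a ≤ D / 2) = decide (b ≤ D / 2) := by simp [ha, hb]
    rw [if_pos hc, min_eq_left (by linarith : a ≤ D - a), min_eq_left (by linarith : b ≤ D - b)]
  · have hc : ¬ (decide (a ≤ D / 2) = decide (b ≤ D / 2)) := by simp [ha, hb]
    have hb := not_le.mp hb
    rw [if_neg hc, min_eq_left (by linarith : a ≤ D - a),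
      min_eq_right (by linarith : D - b ≤ b), abs_of_nonpos (by linarith)]
    ring
  · have hc : ¬ (decide (a ≤ D / 2) = decide (b ≤ D / 2)) := by simp [ha, hb]
    have ha := not_le.mp ha
    rw [if_neg hc, min_eq_right (by linarith : D - a ≤ a),
      min_eq_left (by linarith : b ≤ D - b), abs_of_nonneg (by linarith)]
    ring
  · have hc : decide (a ≤ D / 2) = decide (b ≤ D / 2) := by simp [ha, hb]
    have ha := not_le.mp ha
    have hb := not_le.mp hb
    rw [if_pos hc, min_eq_right (by linarith : D - a ≤ a),
      min_eq_right (by linarith : D - b ≤ b),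
      (by ring : D - a - (D - b) = -(a - b)), abs_neg]

theorem w_lip (D a b : ℝ) : |min a (D - a) - min b (D - b)| ≤ |a - b| := by
  have h := abs_min_sub_min_le_max a (D - a) b (D - b)
  rw [(by ring : D - a - (D - b) = -(a - b)), abs_neg, max_self] at h
  exact h

theorem theta_struct {X I : Type} [Fintype X] [Fintype I] [DecidableEq I]
    (d : X → X → ℝ) (cls : X → I) (τ : X → Bool) (H : I → ℝ) (b u : X → ℝ) (D : ℝ)
    (hD : 0 ≤ D) (hH : ∀ i, 0 ≤ H i) (hb0 : ∀ x, 0 ≤ b x) (hbH : ∀ x, b x ≤ H (cls x))
    (hu0 : ∀ x, 0 ≤ u x) (huD : ∀ x, u x ≤ D)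
    (hsame : ∀ x y, cls x = cls y → d x y = circ τ (H (cls x)) b x y + |u x - u y|)
    (hdiff : ∀ x y, cls x ≠ cls y → d x y =
      (if τ x = true then b x else H (cls x) - b x)
        + (if τ y = true then b y else H (cls y) - b y)
        + min (u x + u y) (2 * D - u x - u y)) :
    ∃ V : X → X → ℝ, IsL1 V ∧ ∀ x y, d x y ≤ V x y ∧ V x y ≤ 3 / 2 * d x y := by
  have hw0 : ∀ x, 0 ≤ min (u x) (D - u x) := fun x => le_min (hu0 x) (by linarith [huD x])
  have hwW : ∀ x, min (u x) (D - u x) ≤ D / 2 := by
    intro x
    rcases le_total (u x) (D / 2) with h | h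
    · exact (min_le_left _ _).trans h
    · exact (min_le_right _ _).trans (by linarith)
  refine ⟨fun x y => Uc cls τ H b x y + tent cls (fun z => min (u z) (D - u z) / 2) x y
      + Nc cls (fun z => decide (u z ≤ D / 2)) (D / 2) (fun z => min (u z) (D - u z)) x y,
    ((Uc_isL1 cls τ H b hb0 hbH hH).add
      (tent_isL1 cls _ (fun x => by linarith [hw0 x]))).add
      (Nc_isL1 cls _ (D / 2) _ hw0 hwW (by linarith)), fun x y => ?_⟩
  show d x y ≤ Uc cls τ H b x y + tent cls (fun z => min (u z) (D - u z) / 2) x y
      + Nc cls (fun z => decide (u z ≤ D / 2)) (D / 2) (fun z => min (u z) (D - u z)) x y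
    ∧ Uc cls τ H b x y + tent cls (fun z => min (u z) (D - u z) / 2) x y
      + Nc cls (fun z => decide (u z ≤ D / 2)) (D / 2) (fun z => min (u z) (D - u z)) x y
      ≤ 3 / 2 * d x y
  by_cases hc : cls x = cls y
  · rw [hsame x y hc, Uc_same cls τ H b x y hc]
    have hρ : 0 ≤ circ τ (H (cls x)) b x y := by
      unfold circ
      split_ifs
      · exact abs_nonneg _
      · have h1 := hb0 x
        have h2 := hb0 y
        have h3 := hbH x
        have h4 := hbH y
        rw [← hc] at h4
        have : |b x - b y| ≤ H (cls x) := abs_le.mpr ⟨by linarith, by linarith⟩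
        linarith
    have hN : Nc cls (fun z => decide (u z ≤ D / 2)) (D / 2) (fun z => min (u z) (D - u z)) x y
        = |u x - u y| := by
      unfold Nc
      rw [if_pos hc]
      exact same_formula D (u x) (u y)
    have hT : tent cls (fun z => min (u z) (D - u z) / 2) x y
        = |min (u x) (D - u x) - min (u y) (D - u y)| / 2 := by
      unfold tent
      rw [if_pos hc]
      show |min (u x) (D - u x) / 2 - min (u y) (D - u y) / 2| = _
      rw [← sub_div, abs_div, abs_of_pos (by norm_num : (0 : ℝ) < 2)]
    rw [hN, hT]
    have h1 := w_lip D (u x) (u y)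
    have h2 := abs_nonneg (min (u x) (D - u x) - min (u y) (D - u y))
    have h3 := abs_nonneg (u x - u y)
    constructor <;> linarith
  · rw [hdiff x y hc, Uc_diff cls τ H b hb0 x y hc, min_formula']
    have hhx : 0 ≤ (if τ x = true then b x else H (cls x) - b x) := by
      split_ifs
      · exact hb0 x
      · linarith [hbH x]
    have hhy : 0 ≤ (if τ y = true then b y else H (cls y) - b y) := by
      split_ifs
      · exact hb0 y
      · linarith [hbH y]
    have hN : Nc cls (fun z => decide (u z ≤ D / 2)) (D / 2) (fun z => min (u z) (D - u z)) x y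
        = if decide (u x ≤ D / 2) = decide (u y ≤ D / 2)
          then max (min (u x) (D - u x)) (min (u y) (D - u y))
          else 2 * (D / 2) - max (min (u x) (D - u x)) (min (u y) (D - u y)) := by
      unfold Nc
      rw [if_neg hc]
    have hT : tent cls (fun z => min (u z) (D - u z) / 2) x y
        = min (u x) (D - u x) / 2 + min (u y) (D - u y) / 2 := by
      unfold tent
      rw [if_neg hc]
    rw [hN, hT]
    have hx0 := hw0 x
    have hy0 := hw0 y
    have hxW := hwW x
    have hyW := hwW y
    generalize min (u x) (D - u x) = a at *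
    generalize min (u y) (D - u y) = c at *
    generalize (if τ x = true then b x else H (cls x) - b x) = p at *
    generalize (if τ y = true then b y else H (cls y) - b y) = q at *
    by_cases hs : decide (u x ≤ D / 2) = decide (u y ≤ D / 2)
    · rw [if_pos hs, if_pos hs]
      rcases le_total a c with hle | hle
      · rw [max_eq_right hle]
        constructor <;> linarith
      · rw [max_eq_left hle]
        constructor <;> linarith
    · rw [if_neg hs, if_neg hs]
      rcases le_total a c with hle | hle
      · rw [max_eq_right hle, abs_of_nonpos (by linarith)]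
        constructor <;> linarith
      · rw [max_eq_left hle, abs_of_nonneg (by linarith)]
        constructor <;> linarith

end Vale.Agent.Lib.P235
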